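import Crest.Agent.Lib.Ruled.Local
set_option autoImplicit false
open MeasureTheory Set
open scoped RealInnerProductSpace ENNReal

namespace Crest.Agent.Lib.Ruled

/-- The weight function. -/
noncomputable def J (h : ℝ) (g : E) : ℝ := 1 / Real.sqrt (1 + (g 0) ^ 2 + h ^ 2 * (g 1) ^ 2)

lemma J_base_pos (h : ℝ) (g : E) : 0 < 1 + (g 0) ^ 2 + h ^ 2 * (g 1) ^ 2 := by positivity

lemma J_nonneg (h : ℝ) (g : E) : 0 ≤ J h g := by unfold J; positivity

lemma J_le_one (h : ℝ) (g : E) : J h g ≤ 1 := by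
  unfold J
  rw [div_le_one (Real.sqrt_pos.mpr (J_base_pos h g))]
  rw [Real.one_le_sqrt]
  nlinarith [sq_nonneg (g 0), mul_nonneg (sq_nonneg h) (sq_nonneg (g 1))]

lemma J_continuous (h : ℝ) : Continuous (J h) := by
  unfold J
  have h0 : Continuous fun g : E => g 0 := by fun_prop
  have h1 : Continuous fun g : E => g 1 := by fun_prop
  refine continuous_const.div (by fun_prop) ?_
  intro g
  exact (Real.sqrt_pos.mpr (J_base_pos h g)).ne'

/-- The standard frame. -/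
noncomputable abbrev std : OrthonormalBasis (Fin 2) ℝ E := EuclideanSpace.basisFun (Fin 2) ℝ

lemma std_inner (j : Fin 2) (u : E) : ⟪std j, u - 0⟫ = u j := by
  simp [std, EuclideanSpace.inner_single_left]

/-- Grid boxes. -/
def box (ρ : ℝ) (i : ℤ × ℤ) : Set E := lcell std 0 ρ i

lemma mem_box (ρ : ℝ) (i : ℤ × ℤ) (u : E) :
    u ∈ box ρ i ↔ (ρ * i.1 ≤ u 0 ∧ u 0 < ρ * (i.1 + 1)) ∧ (ρ * i.2 ≤ u 1 ∧ u 1 < ρ * (i.2 + 1)) := by
  simp only [box, lcell, cell, mem_ofPred_eq, std_inner, mem_Ico]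

lemma measurableSet_box (ρ : ℝ) (i : ℤ × ℤ) : MeasurableSet (box ρ i) :=
  measurableSet_cell _ _ _ _ _ _

lemma volume_box (ρ : ℝ) (hρ : 0 < ρ) (i : ℤ × ℤ) : volume (box ρ i) = ENNReal.ofReal (ρ ^ 2) :=
  volume_lcell _ _ _ hρ _

/-- A vector with small coordinates has small norm. -/
lemma norm_le_of_coord (x : E) (r : ℝ) (hr : 0 ≤ r) (h0 : |x 0| ≤ r) (h1 : |x 1| ≤ r) :
    ‖x‖ ≤ 2 * r := by
  have h2 : ‖x‖ ^ 2 = (x 0) ^ 2 + (x 1) ^ 2 := by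
    rw [EuclideanSpace.norm_sq_eq, Fin.sum_univ_two]
    simp
  have h3 : (x 0) ^ 2 ≤ r ^ 2 := sq_le_sq' (by linarith [(abs_le.mp h0).1]) (abs_le.mp h0).2
  have h4 : (x 1) ^ 2 ≤ r ^ 2 := sq_le_sq' (by linarith [(abs_le.mp h1).1]) (abs_le.mp h1).2
  have h5 : ‖x‖ ^ 2 ≤ (2 * r) ^ 2 := by nlinarith [sq_nonneg r]
  exact abs_le_of_sq_le_sq' h5 (by positivity) |>.2 |> fun h => h

lemma coord_le_norm (x : E) (j : Fin 2) : |x j| ≤ ‖x‖ := by
  have := PiLp.norm_apply_le (p := 2) x j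
  simpa [Real.norm_eq_abs] using this

lemma norm_sub_le_of_mem_box (ρ : ℝ) (hρ : 0 < ρ) (i : ℤ × ℤ) (p q : E) (hp : p ∈ box ρ i)
    (hq : q ∈ box ρ i) : ‖p - q‖ ≤ 2 * ρ := by
  rw [mem_box] at hp hq
  obtain ⟨⟨p1, p2⟩, ⟨p3, p4⟩⟩ := hp
  obtain ⟨⟨q1, q2⟩, ⟨q3, q4⟩⟩ := hq
  apply norm_le_of_coord _ _ hρ.le
  · simp only [PiLp.sub_apply]
    rw [abs_le]; constructor <;> nlinarith
  · simp only [PiLp.sub_apply]
    rw [abs_le]; constructor <;> nlinarith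

lemma lcell_near (b : OrthonormalBasis (Fin 2) ℝ E) (p₀ : E) (δ : ℝ) (hδ : 0 < δ) (mn : ℤ × ℤ) (u : E)
    (hu : u ∈ lcell b p₀ δ mn) :
    ‖u - (p₀ + ((δ * mn.1) • b 0 + (δ * mn.2) • b 1))‖ ≤ 2 * δ := by
  obtain ⟨⟨h1, h2⟩, ⟨h3, h4⟩⟩ := hu
  have hdec : u - p₀ = ⟪b 0, u - p₀⟫ • b 0 + ⟪b 1, u - p₀⟫ • b 1 := by
    have h := b.sum_repr' (u - p₀)
    rw [Fin.sum_univ_two] at h
    exact h.symm
  have e : u - (p₀ + ((δ * mn.1) • b 0 + (δ * mn.2) • b 1))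
      = (⟪b 0, u - p₀⟫ - δ * mn.1) • b 0 + (⟪b 1, u - p₀⟫ - δ * mn.2) • b 1 := by
    have : u = p₀ + (⟪b 0, u - p₀⟫ • b 0 + ⟪b 1, u - p₀⟫ • b 1) := by rw [← hdec]; abel
    conv_lhs => rw [this]
    module
  rw [e]
  have hn0 : ‖b 0‖ = 1 := b.norm_eq_one 0
  have hn1 : ‖b 1‖ = 1 := b.norm_eq_one 1
  calc _ ≤ ‖(⟪b 0, u - p₀⟫ - δ * mn.1) • b 0‖ + ‖(⟪b 1, u - p₀⟫ - δ * mn.2) • b 1‖ := norm_add_le _ _
    _ = |⟪b 0, u - p₀⟫ - δ * mn.1| + |⟪b 1, u - p₀⟫ - δ * mn.2| := by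
        rw [norm_smul, norm_smul, hn0, hn1, mul_one, mul_one, Real.norm_eq_abs, Real.norm_eq_abs]
    _ ≤ δ + δ := by
        apply add_le_add
        · rw [abs_le]; constructor <;> nlinarith
        · rw [abs_le]; constructor <;> nlinarith
    _ = 2 * δ := by ring

lemma corner_mem_lcell (b : OrthonormalBasis (Fin 2) ℝ E) (p₀ : E) (δ : ℝ) (hδ : 0 < δ) (mn : ℤ × ℤ) :
    (p₀ + ((δ * mn.1) • b 0 + (δ * mn.2) • b 1)) ∈ lcell b p₀ δ mn := by
  have hn0 : ‖b 0‖ = 1 := b.norm_eq_one 0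
  have hn1 : ‖b 1‖ = 1 := b.norm_eq_one 1
  have h00 : ⟪b 0, b 0⟫ = 1 := by rw [real_inner_self_eq_norm_sq, hn0]; norm_num
  have h11 : ⟪b 1, b 1⟫ = 1 := by rw [real_inner_self_eq_norm_sq, hn1]; norm_num
  have h01 : ⟪b 0, b 1⟫ = 0 := b.orthonormal.2 (show (0 : Fin 2) ≠ 1 by decide)
  have h10 : ⟪b 1, b 0⟫ = 0 := by rw [real_inner_comm]; exact h01
  simp only [lcell, cell, mem_ofPred_eq, add_sub_cancel_left, inner_add_right, inner_smul_right,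
    h00, h01, h10, h11, mem_Ico]
  refine ⟨⟨by linarith, ?_⟩, ⟨by linarith, ?_⟩⟩ <;> nlinarith

set_option maxHeartbeats 4000000 in
/-- The per-box construction. -/
lemma cell_data
    (D : Set E) (hDm : MeasurableSet D) (V : E → E) (L C κ h ρ δ ηe η₁ θ : ℝ)
    (hC : 0 ≤ C) (hκ : 0 < κ) (hρ : 0 < ρ) (hδ : 0 < δ) (hL : 0 < L)
    (hη₁ : 0 ≤ η₁) (hη₁1 : η₁ ≤ 1) (hθ : 0 ≤ θ) (hθ1 : θ ≤ 1) (hηe : 0 ≤ ηe)
    (htr : ∀ p ∈ D, LinearMap.trace ℝ E (fderiv ℝ V p).toLinearMap = 0)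
    (hdet : ∀ p ∈ D, LinearMap.det (fderiv ℝ V p).toLinearMap ≤ 0)
    (hκdet : ∀ p ∈ D, κ ≤ 1 + L ^ 2 * LinearMap.det (fderiv ℝ V p).toLinearMap)
    (hCbd : ∀ p ∈ D, ‖fderiv ℝ V p‖ ≤ C)
    (hMV : ∀ p₀ ∈ D, ∀ p ∈ D, ‖p - p₀‖ ≤ 2 * ρ → ‖V p - V p₀ - fderiv ℝ V p₀ (p - p₀)‖ ≤ ηe)
    (hr : 2 * (2 * (1 + L * C) * (L * ηe + δ) / κ + 2 * δ) ≤ θ * ρ)
    (hJ1 : ∀ p ∈ D, ∀ g, ‖g - V p‖ ≤ 4 * C * ρ → J h g ≤ J h (V p) + η₁)
    (hJ2 : ∀ p ∈ D, ∀ q ∈ D, ‖p - q‖ ≤ 2 * ρ → J h (V p) ≤ J h (V q) + η₁)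
    (hint : IntegrableOn (fun p => J h (V p)) D)
    (i : ℤ × ℤ) :
    ∃ (Λ : Finset (ℤ × ℤ)) (c a b g : ℤ × ℤ → E),
      (∀ mn ∈ Λ, a mn ≠ 0 ∧ ‖b mn‖ = ‖a mn‖ ∧ inner ℝ (a mn) (b mn) = 0) ∧
      (∀ p ∈ D ∩ box ρ i, ∀ s : ℝ, |s| ≤ L → ∃ mn ∈ Λ, ∃ x ∈ Icc (0 : ℝ) 1, ∃ y ∈ Icc (0 : ℝ) 1,
        p + s • V p = c mn + x • a mn + y • b mn + s • g mn) ∧
      ∑ mn ∈ Λ, ‖a mn‖ ^ 2 * J h (g mn) ≤
        (1 + θ) ^ 2 * ((∫ p in D ∩ box ρ i, (J h (V p) + 2 * η₁)) +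
          2 * (volume (box ρ i \ D)).toReal) := by
  classical
  by_cases hne : (D ∩ box ρ i).Nonempty
  swap
  · refine ⟨∅, 0, 0, 0, 0, by simp, ?_, ?_⟩
    · intro p hp
      exact absurd ⟨p, hp⟩ hne
    · have hemp : D ∩ box ρ i = ∅ := Set.not_nonempty_iff_eq_empty.mp hne
      rw [hemp]
      simp only [Finset.sum_empty, Measure.restrict_empty, integral_zero_measure, zero_add]
      positivity
  obtain ⟨p₀, hp₀D, hp₀box⟩ := hne
  set A := fderiv ℝ V p₀ with hA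
  obtain ⟨b, α, β, hA0, hA1, hdetA, hα, hβ⟩ := exists_frame A (htr p₀ hp₀D)
  have hα' : |α| ≤ C := hα.trans (hCbd p₀ hp₀D)
  have hβ' : |β| ≤ C := hβ.trans (hCbd p₀ hp₀D)
  have hdet0 : 0 ≤ α * β := by
    have := hdet p₀ hp₀D
    rw [← hA, hdetA] at this
    linarith
  have hκ0 : κ ≤ 1 - L ^ 2 * (α * β) := by
    have := hκdet p₀ hp₀D
    rw [← hA, hdetA] at this
    linarith
  set R := 2 * (1 + L * C) * (L * ηe + δ) / κ with hR
  have hR0 : 0 ≤ R := by positivity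
  set r := R + 2 * δ with hrdef
  have hr0 : 0 ≤ r := by positivity
  have hr2 : 2 * r ≤ θ * ρ := hr
  have hbd2 : ρ + 2 * r ≤ 2 * ρ := by nlinarith
  have hbd3 : ρ + 2 * r ≤ (1 + θ) * ρ := by nlinarith
  set Qp : Set E := cell std 0 (ρ * i.1 - r) (ρ * (i.1 + 1) + r) (ρ * i.2 - r) (ρ * (i.2 + 1) + r)
    with hQp
  have hQpmem : ∀ u : E, u ∈ Qp ↔ (ρ * i.1 - r ≤ u 0 ∧ u 0 < ρ * (i.1 + 1) + r) ∧
      (ρ * i.2 - r ≤ u 1 ∧ u 1 < ρ * (i.2 + 1) + r) := by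
    intro u
    simp only [hQp, cell, mem_ofPred_eq, std_inner, mem_Ico]
  have hQpvol : volume Qp = ENNReal.ofReal ((ρ + 2 * r) ^ 2) := by
    rw [hQp, volume_cell, ← ENNReal.ofReal_mul]
    · congr 1; ring
    · nlinarith
  have hQpfin : volume Qp ≠ ∞ := by rw [hQpvol]; exact ENNReal.ofReal_ne_top
  obtain ⟨Λ, hΛ, hcard⟩ := count_cells b p₀ δ hδ Qp hQpfin
  rw [hQpvol, ENNReal.toReal_ofReal (by positivity)] at hcard
  set c : ℤ × ℤ → E := fun mn => p₀ + ((δ * mn.1) • b 0 + (δ * mn.2) • b 1) with hc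
  set g : ℤ × ℤ → E := fun mn => V p₀ + A ((δ * mn.1) • b 0 + (δ * mn.2) • b 1) with hg
  have hn0 : ‖b 0‖ = 1 := b.norm_eq_one 0
  have hn1 : ‖b 1‖ = 1 := b.norm_eq_one 1
  have h01 : ⟪b 0, b 1⟫ = 0 := b.orthonormal.2 (show (0 : Fin 2) ≠ 1 by decide)
  have hna : ‖δ • b 0‖ = δ := by rw [norm_smul, hn0, mul_one, Real.norm_eq_abs, abs_of_pos hδ]
  have hnb : ‖δ • b 1‖ = δ := by rw [norm_smul, hn1, mul_one, Real.norm_eq_abs, abs_of_pos hδ]
  refine ⟨Λ, c, fun _ => δ • b 0, fun _ => δ • b 1, g, ?_, ?_, ?_⟩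
  · -- shape of the tiles
    intro mn _
    refine ⟨?_, ?_, ?_⟩
    · intro h0
      have := hna
      have h0' : δ • b 0 = 0 := h0
      rw [h0', norm_zero] at this
      linarith
    · simp only [hna, hnb]
    · simp only [inner_smul_left, inner_smul_right, h01]
      simp
  · -- the cover
    rintro p ⟨hpD, hpbox⟩ s hs
    have hs2 : s ^ 2 ≤ L ^ 2 := sq_le_sq' (by linarith [(abs_le.mp hs).1]) (abs_le.mp hs).2
    have hab : (s * α) * (s * β) = s ^ 2 * (α * β) := by ring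
    have hab0 : 0 ≤ (s * α) * (s * β) := by rw [hab]; positivity
    have hκs : κ ≤ 1 - (s * α) * (s * β) := by
      rw [hab]
      nlinarith [mul_le_mul_of_nonneg_right hs2 hdet0]
    obtain ⟨m, n, x, y, hx, hy, heq⟩ := local_solve b α β A hA0 hA1 p₀ (V p₀) δ hδ s hab0
      (by linarith) (p + s • V p)
    have hmem : (m, n) ∈ Λ := by
      rw [hΛ]
      intro u hu
      -- distance of the corner to `p`
      set cc := c (m, n) with hcc
      have hcorner : ‖cc - p‖ ≤ R := by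
        refine local_bound b α β A hA0 hA1 s x y δ L C κ ηe hδ hs hα' hβ' hκ hκs hx hy (cc - p)
          (V p - V p₀ - A (p - p₀)) (hMV p₀ hp₀D p hpD (norm_sub_le_of_mem_box ρ hρ i p p₀ hpbox hp₀box)) ?_
        have hcc' : cc - p₀ = (δ * m) • b 0 + (δ * n) • b 1 := by
          simp [hcc, hc]
        have e1 : A (cc - p) = A ((δ * m) • b 0 + (δ * n) • b 1) - A (p - p₀) := by
          rw [← hcc', ← map_sub]
          congr 1
          abel
        rw [e1]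
        have e2 : cc = p₀ + ((δ * m) • b 0 + (δ * n) • b 1) := by simp [hcc, hc]
        rw [e2] at *
        have e3 : p = (p₀ + ((δ * m) • b 0 + (δ * n) • b 1)) + x • (δ • b 0) + y • (δ • b 1) +
            s • (V p₀ + A ((δ * m) • b 0 + (δ * n) • b 1)) - s • V p := eq_sub_of_add_eq heq
        set T := A ((δ * m) • b 0 + (δ * n) • b 1) with hT
        set T' := A (p - p₀) with hT'
        have e4 : p₀ + ((δ * m) • b 0 + (δ * n) • b 1) - p =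
            s • V p - x • (δ • b 0) - y • (δ • b 1) - s • (V p₀ + T) := by
          conv_lhs => rw [e3]
          abel
        rw [e4]
        simp only [smul_sub, smul_add]
        abel
      have hunear := lcell_near b p₀ δ hδ (m, n) u hu
      have hdist : ‖u - p‖ ≤ r := by
        have : u - p = (u - cc) + (cc - p) := by abel
        rw [this]
        calc _ ≤ ‖u - cc‖ + ‖cc - p‖ := norm_add_le _ _
          _ ≤ 2 * δ + R := add_le_add hunear hcorner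
          _ = r := by rw [hrdef]; ring
      have h0 : |(u - p) 0| ≤ r := (coord_le_norm _ _).trans hdist
      have h1 : |(u - p) 1| ≤ r := (coord_le_norm _ _).trans hdist
      simp only [PiLp.sub_apply] at h0 h1
      rw [abs_le] at h0 h1
      rw [mem_box] at hpbox
      rw [hQpmem]
      obtain ⟨⟨a1, a2⟩, ⟨a3, a4⟩⟩ := hpbox
      refine ⟨⟨?_, ?_⟩, ⟨?_, ?_⟩⟩ <;> linarith [h0.1, h0.2, h1.1, h1.2]
    refine ⟨(m, n), hmem, x, hx, y, hy, ?_⟩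
    exact heq
  · -- the sum
    have hp₀Qp : p₀ ∈ Qp := by
      rw [hQpmem]
      have := hp₀box
      rw [mem_box] at this
      obtain ⟨⟨a1, a2⟩, ⟨a3, a4⟩⟩ := this
      refine ⟨⟨?_, ?_⟩, ⟨?_, ?_⟩⟩ <;> linarith
    set J₀ := J h (V p₀) with hJ₀
    have hJ₀0 : 0 ≤ J₀ := J_nonneg h _
    have hterm : ∀ mn ∈ Λ, ‖δ • b 0‖ ^ 2 * J h (g mn) ≤ δ ^ 2 * (J₀ + η₁) := by
      intro mn hmn
      rw [hna]
      apply mul_le_mul_of_nonneg_left _ (by positivity)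
      apply hJ1 p₀ hp₀D
      have hcQ : c mn ∈ Qp := (hΛ mn).mp hmn (corner_mem_lcell b p₀ δ hδ mn)
      have hcp : ‖c mn - p₀‖ ≤ 4 * ρ := by
        rw [hQpmem] at hcQ hp₀Qp
        obtain ⟨⟨a1, a2⟩, ⟨a3, a4⟩⟩ := hcQ
        obtain ⟨⟨b1, b2⟩, ⟨b3, b4⟩⟩ := hp₀Qp
        have : ‖c mn - p₀‖ ≤ 2 * (2 * ρ) := by
          apply norm_le_of_coord _ _ (by positivity)
          · simp only [PiLp.sub_apply]
            rw [abs_le]; constructor <;> linarith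
          · simp only [PiLp.sub_apply]
            rw [abs_le]; constructor <;> linarith
        linarith
      have e : g mn - V p₀ = A (c mn - p₀) := by
        simp [hg, hc]
      rw [e]
      calc ‖A (c mn - p₀)‖ ≤ ‖A‖ * ‖c mn - p₀‖ := A.le_opNorm _
        _ ≤ C * (4 * ρ) := mul_le_mul (hCbd p₀ hp₀D) hcp (norm_nonneg _) hC
        _ = 4 * C * ρ := by ring
    have hsum1 : ∑ mn ∈ Λ, ‖δ • b 0‖ ^ 2 * J h (g mn) ≤ (Λ.card : ℝ) * δ ^ 2 * (J₀ + η₁) := by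
      calc _ ≤ ∑ mn ∈ Λ, δ ^ 2 * (J₀ + η₁) := Finset.sum_le_sum hterm
        _ = _ := by rw [Finset.sum_const, nsmul_eq_mul]; ring
    have hsum2 : (Λ.card : ℝ) * δ ^ 2 * (J₀ + η₁) ≤ (1 + θ) ^ 2 * (ρ ^ 2 * (J₀ + η₁)) := by
      have h1 : (ρ + 2 * r) ^ 2 ≤ ((1 + θ) * ρ) ^ 2 := by
        apply sq_le_sq' _ hbd3
        nlinarith
      have h2 : 0 ≤ J₀ + η₁ := by positivity
      calc (Λ.card : ℝ) * δ ^ 2 * (J₀ + η₁) ≤ ((1 + θ) * ρ) ^ 2 * (J₀ + η₁) :=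
            mul_le_mul_of_nonneg_right (hcard.trans h1) h2
        _ = _ := by ring
    refine hsum1.trans (hsum2.trans ?_)
    apply mul_le_mul_of_nonneg_left _ (by positivity)
    -- split the box
    have hm : MeasurableSet (box ρ i) := measurableSet_box ρ i
    have hvolbox : (volume (box ρ i)).toReal = ρ ^ 2 := by
      rw [volume_box ρ hρ, ENNReal.toReal_ofReal (by positivity)]
    have hfin1 : volume (box ρ i ∩ D) ≠ ∞ :=
      ne_top_of_le_ne_top (by rw [volume_box ρ hρ]; exact ENNReal.ofReal_ne_top)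
        (measure_mono inter_subset_left)
    have hfin2 : volume (box ρ i \ D) ≠ ∞ :=
      ne_top_of_le_ne_top (by rw [volume_box ρ hρ]; exact ENNReal.ofReal_ne_top)
        (measure_mono diff_subset)
    have hsplit : (volume (box ρ i)).toReal =
        (volume (D ∩ box ρ i)).toReal + (volume (box ρ i \ D)).toReal := by
      have hsplit0 : volume (box ρ i) = volume (D ∩ box ρ i) + volume (box ρ i \ D) := by
        rw [inter_comm]
        exact (measure_inter_add_diff (box ρ i) hDm).symm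
      rw [hsplit0, ENNReal.toReal_add (by rwa [inter_comm]) hfin2]
    have hconst : (volume (D ∩ box ρ i)).toReal * (J₀ + η₁) ≤
        ∫ p in D ∩ box ρ i, (J h (V p) + 2 * η₁) := by
      have hfin1' : volume (D ∩ box ρ i) < ∞ := by
        rw [inter_comm]; exact lt_top_iff_ne_top.mpr hfin1
      have hiL : IntegrableOn (fun _ : E => J₀ + η₁) (D ∩ box ρ i) := integrableOn_const hfin1'.ne
      have hiR : IntegrableOn (fun p => J h (V p) + 2 * η₁) (D ∩ box ρ i) :=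
        (hint.mono_set inter_subset_left).add (integrableOn_const hfin1'.ne)
      have hle := setIntegral_mono_on hiL hiR (hDm.inter hm) (fun p hp => by
        have := hJ2 p₀ hp₀D p hp.1 (norm_sub_le_of_mem_box ρ hρ i p₀ p hp₀box hp.2)
        show J₀ + η₁ ≤ J h (V p) + 2 * η₁
        linarith)
      rw [setIntegral_const] at hle
      simpa [Measure.real, smul_eq_mul] using hle
    have hrest : (volume (box ρ i \ D)).toReal * (J₀ + η₁) ≤ 2 * (volume (box ρ i \ D)).toReal := by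
      have : J₀ + η₁ ≤ 2 := by linarith [J_le_one h (V p₀)]
      have h3 : 0 ≤ (volume (box ρ i \ D)).toReal := ENNReal.toReal_nonneg
      calc _ ≤ (volume (box ρ i \ D)).toReal * 2 := mul_le_mul_of_nonneg_left this h3
        _ = _ := by ring
    rw [← hvolbox, hsplit, add_mul]
    exact add_le_add hconst hrest

end Crest.Agent.Lib.Ruled
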