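import Mathlib
set_option autoImplicit false
open MeasureTheory Set
open scoped RealInnerProductSpace

namespace Crest.Agent.Lib.Ruled

/-- Lattice covering lemma. -/
lemma lattice_cover (a b ξ₁ ξ₂ : ℝ) (hab0 : 0 ≤ a * b) (hab1 : a * b < 1) :
    ∃ m n : ℤ, ξ₁ - m - a * n ∈ Icc (0 : ℝ) 1 ∧ ξ₂ - n - b * m ∈ Icc (0 : ℝ) 1 := by
  set mf : ℤ → ℤ := fun n => ⌊ξ₁ - a * n⌋ with hmf
  set l : ℤ → ℝ := fun n => n + b * mf n with hl
  have hfl1 : ∀ n : ℤ, (mf n : ℝ) ≤ ξ₁ - a * n := fun n => Int.floor_le _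
  have hfl2 : ∀ n : ℤ, ξ₁ - a * n < mf n + 1 := fun n => Int.lt_floor_add_one _
  have hκ : 0 < 1 - a * b := by linarith
  -- two sided estimate of l
  have hbm : ∀ n : ℤ, |b * (mf n : ℝ) - b * (ξ₁ - a * n)| ≤ |b| := by
    intro n
    have : b * (mf n : ℝ) - b * (ξ₁ - a * n) = b * ((mf n : ℝ) - (ξ₁ - a * n)) := by ring
    rw [this, abs_mul]
    have h1 : |(mf n : ℝ) - (ξ₁ - a * n)| ≤ 1 := by
      rw [abs_le]; constructor
      · linarith [hfl2 n]
      · linarith [hfl1 n]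
    calc |b| * |(mf n : ℝ) - (ξ₁ - a * n)| ≤ |b| * 1 := by gcongr
      _ = |b| := mul_one _
  have hlow : ∀ n : ℤ, n * (1 - a * b) + b * ξ₁ - |b| ≤ l n := by
    intro n
    have := (abs_le.mp (hbm n)).1
    simp only [hl]
    nlinarith
  have hup : ∀ n : ℤ, l n ≤ n * (1 - a * b) + b * ξ₁ + |b| := by
    intro n
    have := (abs_le.mp (hbm n)).2
    simp only [hl]
    nlinarith
  -- step bound
  have hstep : ∀ n : ℤ, l (n + 1) ≤ l n + 1 := by
    intro n
    have hmono : b * ((mf (n + 1) : ℝ) - mf n) ≤ 0 := by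
      rcases lt_trichotomy a 0 with ha | ha | ha
      · have hb : b ≤ 0 := by
          by_contra hb
          push_neg at hb
          nlinarith
        have : (mf n : ℤ) ≤ mf (n + 1) := by
          apply Int.floor_le_floor
          push_cast
          nlinarith
        have h' : ((mf n : ℤ) : ℝ) ≤ (mf (n + 1) : ℤ) := by exact_mod_cast this
        nlinarith
      · have : mf (n + 1) = mf n := by
          simp [hmf, ha]
        rw [this]; simp
      · have hb : 0 ≤ b := by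
          by_contra hb
          push_neg at hb
          nlinarith
        have : (mf (n + 1) : ℤ) ≤ mf n := by
          apply Int.floor_le_floor
          push_cast
          nlinarith
        have h' : ((mf (n + 1) : ℤ) : ℝ) ≤ (mf n : ℤ) := by exact_mod_cast this
        nlinarith
    simp only [hl]
    push_cast
    nlinarith
  -- existence of greatest n with l n ≤ ξ₂
  obtain ⟨N₁, hN₁⟩ := exists_int_gt ((ξ₂ - b * ξ₁ + |b|) / (1 - a * b))
  obtain ⟨N₂, hN₂⟩ := exists_int_lt ((ξ₂ - b * ξ₁ - |b|) / (1 - a * b))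
  have hbdd : ∃ B : ℤ, ∀ z : ℤ, l z ≤ ξ₂ → z ≤ B := by
    refine ⟨N₁, fun z hz => ?_⟩
    have h1 := hlow z
    have h2 : (z : ℝ) * (1 - a * b) ≤ ξ₂ - b * ξ₁ + |b| := by linarith
    have h3 : (z : ℝ) ≤ (ξ₂ - b * ξ₁ + |b|) / (1 - a * b) := by
      rw [le_div_iff₀ hκ]; exact h2
    have h4 : (z : ℝ) < N₁ := lt_of_le_of_lt h3 hN₁
    exact_mod_cast h4.le
  have hinh : ∃ z : ℤ, l z ≤ ξ₂ := by
    refine ⟨N₂, ?_⟩
    have h1 := hup N₂
    have h3 : (N₂ : ℝ) * (1 - a * b) ≤ ξ₂ - b * ξ₁ - |b| := by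
      have := (lt_div_iff₀ hκ).mp hN₂
      linarith
    linarith
  obtain ⟨n, hn, hmax⟩ := Int.exists_greatest_of_bdd hbdd hinh
  have hnext : ξ₂ < l (n + 1) := by
    by_contra hcon
    push_neg at hcon
    have := hmax _ hcon
    omega
  refine ⟨mf n, n, ⟨?_, ?_⟩, ⟨?_, ?_⟩⟩
  · linarith [hfl1 n]
  · linarith [hfl2 n]
  · have : l n = n + b * mf n := rfl
    linarith
  · have h1 := hstep n
    have : l n = n + b * mf n := rfl
    linarith



abbrev E := EuclideanSpace ℝ (Fin 2)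

noncomputable def e0 : E := EuclideanSpace.single (0 : Fin 2) (1 : ℝ)
noncomputable def e1 : E := EuclideanSpace.single (1 : Fin 2) (1 : ℝ)

lemma e0_e0 : ⟪e0, e0⟫ = 1 := by simp [e0]
lemma e1_e1 : ⟪e1, e1⟫ = 1 := by simp [e1]
lemma e0_e1 : ⟪e0, e1⟫ = 0 := by simp [e0, e1, PiLp.inner_apply]
lemma e1_e0 : ⟪e1, e0⟫ = 0 := by simp [e0, e1, PiLp.inner_apply]

/-- Orthonormal frame with zero diagonal for a traceless endomorphism of the plane. -/
lemma exists_frame (A : E →L[ℝ] E) (htr : LinearMap.trace ℝ E A.toLinearMap = 0) :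
    ∃ (b : OrthonormalBasis (Fin 2) ℝ E) (α β : ℝ), A (b 0) = β • b 1 ∧ A (b 1) = α • b 0 ∧
      LinearMap.det A.toLinearMap = -(α * β) ∧ |α| ≤ ‖A‖ ∧ |β| ≤ ‖A‖ := by
  classical
  set u : ℝ → E := fun φ => Real.cos φ • e0 + Real.sin φ • e1 with hu
  set w : ℝ → E := fun φ => (-Real.sin φ) • e0 + Real.cos φ • e1 with hw
  set q : ℝ → ℝ := fun φ => ⟪u φ, A (u φ)⟫ with hq
  have hqc : Continuous q := by
    have hu' : Continuous u := by
      simp only [hu]; fun_prop
    exact (hu'.inner (A.continuous.comp hu'))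
  -- the trace in the standard basis
  have htr0 : ⟪e0, A e0⟫ + ⟪e1, A e1⟫ = 0 := by
    have h := LinearMap.trace_eq_sum_inner (𝕜 := ℝ) A.toLinearMap (EuclideanSpace.basisFun (Fin 2) ℝ)
    rw [htr, Fin.sum_univ_two] at h
    simpa [e0, e1] using h.symm
  have hq0 : q 0 = ⟪e0, A e0⟫ := by simp [hq, hu]
  have hq1 : q (Real.pi / 2) = ⟪e1, A e1⟫ := by simp [hq, hu]
  have hzero : (0 : ℝ) ∈ uIcc (q 0) (q (Real.pi / 2)) := by
    rw [hq0, hq1, mem_uIcc]
    by_cases h : 0 ≤ ⟪e0, A e0⟫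
    · right; constructor <;> linarith
    · left; constructor <;> linarith
  obtain ⟨φ, -, hφ⟩ := intermediate_value_uIcc (hqc.continuousOn (s := uIcc 0 (Real.pi / 2))) hzero
  -- the rotated frame
  set c := Real.cos φ with hc
  set s := Real.sin φ with hs
  have hcs : c ^ 2 + s ^ 2 = 1 := by
    rw [hc, hs, add_comm]; exact Real.sin_sq_add_cos_sq φ
  have huu : ⟪u φ, u φ⟫ = 1 := by
    simp only [hu, inner_add_left, inner_add_right, inner_smul_left, inner_smul_right, e0_e0, e1_e1,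
      e0_e1, e1_e0]
    simp
    nlinarith
  have hww : ⟪w φ, w φ⟫ = 1 := by
    simp only [hw, inner_add_left, inner_add_right, inner_smul_left, inner_smul_right, e0_e0, e1_e1,
      e0_e1, e1_e0]
    simp
    nlinarith
  have huw : ⟪u φ, w φ⟫ = 0 := by
    simp only [hu, hw, inner_add_left, inner_add_right, inner_smul_left, inner_smul_right, e0_e0,
      e1_e1, e0_e1, e1_e0]
    simp
    ring
  have hwu : ⟪w φ, u φ⟫ = 0 := by rw [real_inner_comm]; exact huw
  have hnu : ‖u φ‖ = 1 := by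
    have h := real_inner_self_eq_norm_sq (u φ)
    rw [huu] at h
    nlinarith [norm_nonneg (u φ)]
  have hnw : ‖w φ‖ = 1 := by
    have h := real_inner_self_eq_norm_sq (w φ)
    rw [hww] at h
    nlinarith [norm_nonneg (w φ)]
  have horth0 : Orthonormal ℝ ![u φ, w φ] := by
    rw [orthonormal_iff_ite]
    intro i j
    fin_cases i <;> fin_cases j <;> simp [hnu, hnw, huw, hwu]
  obtain ⟨b, hb⟩ := Orthonormal.exists_orthonormalBasis_extension_of_card_eq (𝕜 := ℝ) (E := E)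
    (ι := Fin 2) (v := ![u φ, w φ]) (s := Set.univ) (by simp)
    (horth0.comp Subtype.val Subtype.val_injective)
  have hb0 : b 0 = u φ := by simpa using hb 0 (mem_univ _)
  have hb1 : b 1 = w φ := by simpa using hb 1 (mem_univ _)
  have hdiag0 : ⟪b 0, A (b 0)⟫ = 0 := by rw [hb0]; exact hφ
  have hdiag1 : ⟪b 1, A (b 1)⟫ = 0 := by
    have h := LinearMap.trace_eq_sum_inner (𝕜 := ℝ) A.toLinearMap b
    rw [htr, Fin.sum_univ_two] at h
    simp only [ContinuousLinearMap.coe_coe] at h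
    linarith
  set α := ⟪b 0, A (b 1)⟫ with hα
  set β := ⟪b 1, A (b 0)⟫ with hβ
  have hA0 : A (b 0) = β • b 1 := by
    have h := b.sum_repr' (A (b 0))
    rw [Fin.sum_univ_two] at h
    rw [← h, hdiag0, zero_smul, zero_add]
  have hA1 : A (b 1) = α • b 0 := by
    have h := b.sum_repr' (A (b 1))
    rw [Fin.sum_univ_two] at h
    rw [← h, hdiag1, zero_smul, add_zero]
  have hdet : LinearMap.det A.toLinearMap = -(α * β) := by
    rw [← LinearMap.det_toMatrix b.toBasis, Matrix.det_fin_two]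
    simp only [LinearMap.toMatrix_apply, OrthonormalBasis.coe_toBasis, OrthonormalBasis.coe_toBasis_repr_apply,
      OrthonormalBasis.repr_apply_apply, ContinuousLinearMap.coe_coe]
    rw [hdiag0, hdiag1]
    ring
  have hn0 : ‖b 0‖ = 1 := b.norm_eq_one 0
  have hn1 : ‖b 1‖ = 1 := b.norm_eq_one 1
  refine ⟨b, α, β, hA0, hA1, hdet, ?_, ?_⟩
  · have h := abs_real_inner_le_norm (b 0) (A (b 1))
    rw [hn0, one_mul] at h
    calc |α| ≤ ‖A (b 1)‖ := h
      _ ≤ ‖A‖ * ‖b 1‖ := A.le_opNorm _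
      _ = ‖A‖ := by rw [hn1, mul_one]
  · have h := abs_real_inner_le_norm (b 1) (A (b 0))
    rw [hn1, one_mul] at h
    calc |β| ≤ ‖A (b 0)‖ := h
      _ ≤ ‖A‖ * ‖b 0‖ := A.le_opNorm _
      _ = ‖A‖ := by rw [hn0, mul_one]

end Crest.Agent.Lib.Ruled
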