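import Crest.Agent.Lib.Ruled.Frame
set_option autoImplicit false
open MeasureTheory Set
open scoped RealInnerProductSpace ENNReal

namespace Crest.Agent.Lib.Ruled

/-- Solving the lattice equation in a frame. -/
lemma local_solve (b : OrthonormalBasis (Fin 2) ℝ E) (α β : ℝ) (A : E →L[ℝ] E)
    (hA0 : A (b 0) = β • b 1) (hA1 : A (b 1) = α • b 0)
    (p₀ V0 : E) (δ : ℝ) (hδ : 0 < δ) (s : ℝ)
    (hab0 : 0 ≤ (s * α) * (s * β)) (hab1 : (s * α) * (s * β) < 1) (ξ : E) :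
    ∃ (m n : ℤ) (x y : ℝ), x ∈ Icc (0 : ℝ) 1 ∧ y ∈ Icc (0 : ℝ) 1 ∧
      ξ = (p₀ + ((δ * m) • b 0 + (δ * n) • b 1)) + x • (δ • b 0) + y • (δ • b 1)
        + s • (V0 + A ((δ * m) • b 0 + (δ * n) • b 1)) := by
  set w : E := ξ - p₀ - s • V0 with hw
  obtain ⟨m, n, hm, hn⟩ := lattice_cover (s * α) (s * β) (⟪b 0, w⟫ / δ) (⟪b 1, w⟫ / δ) hab0 hab1
  refine ⟨m, n, _, _, hm, hn, ?_⟩
  have hwdec : w = ⟪b 0, w⟫ • b 0 + ⟪b 1, w⟫ • b 1 := by
    have h := b.sum_repr' w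
    rw [Fin.sum_univ_two] at h
    exact h.symm
  have hξ : ξ = p₀ + s • V0 + (⟪b 0, w⟫ • b 0 + ⟪b 1, w⟫ • b 1) := by
    rw [← hwdec, hw]; abel
  rw [map_add, map_smul, map_smul, hA0, hA1]
  have e1 : ⟪b 0, w⟫ = δ * (⟪b 0, w⟫ / δ) := by field_simp
  have e2 : ⟪b 1, w⟫ = δ * (⟪b 1, w⟫ / δ) := by field_simp
  set ξ₁ := ⟪b 0, w⟫ / δ with hξ₁
  set ξ₂ := ⟪b 1, w⟫ / δ with hξ₂
  rw [hξ, e1, e2]
  module

/-- Bound on the position of the solution. -/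
lemma local_bound (b : OrthonormalBasis (Fin 2) ℝ E) (α β : ℝ) (A : E →L[ℝ] E)
    (hA0 : A (b 0) = β • b 1) (hA1 : A (b 1) = α • b 0)
    (s x y δ L C κ η : ℝ) (hδ : 0 < δ) (hs : |s| ≤ L) (hα : |α| ≤ C) (hβ : |β| ≤ C)
    (hκ : 0 < κ) (hκ' : κ ≤ 1 - (s * α) * (s * β))
    (hx : x ∈ Icc (0 : ℝ) 1) (hy : y ∈ Icc (0 : ℝ) 1) (w e : E) (he : ‖e‖ ≤ η)
    (hrel : w + s • A w = s • e - x • (δ • b 0) - y • (δ • b 1)) :
    ‖w‖ ≤ 2 * (1 + L * C) * (L * η + δ) / κ := by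
  have hL : 0 ≤ L := (abs_nonneg s).trans hs
  have hC : 0 ≤ C := (abs_nonneg α).trans hα
  have hη : 0 ≤ η := (norm_nonneg e).trans he
  set X := ⟪b 0, w⟫ with hX
  set Y := ⟪b 1, w⟫ with hY
  have hn0 : ‖b 0‖ = 1 := b.norm_eq_one 0
  have hn1 : ‖b 1‖ = 1 := b.norm_eq_one 1
  have h00 : ⟪b 0, b 0⟫ = 1 := by rw [real_inner_self_eq_norm_sq, hn0]; norm_num
  have h11 : ⟪b 1, b 1⟫ = 1 := by rw [real_inner_self_eq_norm_sq, hn1]; norm_num
  have h01 : ⟪b 0, b 1⟫ = 0 := by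
    have := b.orthonormal.2 (show (0 : Fin 2) ≠ 1 by decide)
    exact this
  have h10 : ⟪b 1, b 0⟫ = 0 := by rw [real_inner_comm]; exact h01
  have hwdec : w = X • b 0 + Y • b 1 := by
    have h := b.sum_repr' w
    rw [Fin.sum_univ_two] at h
    exact h.symm
  have hAw : A w = (Y * α) • b 0 + (X * β) • b 1 := by
    conv_lhs => rw [hwdec]
    rw [map_add, map_smul, map_smul, hA0, hA1]
    module
  -- the two scalar equations
  have eq0 := congrArg (fun v => ⟪b 0, v⟫) hrel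
  have eq1 := congrArg (fun v => ⟪b 1, v⟫) hrel
  simp only [hAw, inner_add_right, inner_sub_right, inner_smul_right, h00, h01, h10, h11,
    ← hX, ← hY] at eq0 eq1
  set E1 := s * ⟪b 0, e⟫ - x * δ with hE1
  set E2 := s * ⟪b 1, e⟫ - y * δ with hE2
  have eq0' : X + (s * α) * Y = E1 := by rw [hE1]; linarith
  have eq1' : Y + (s * β) * X = E2 := by rw [hE2]; linarith
  have hin : ∀ j : Fin 2, |⟪b j, e⟫| ≤ η := by
    intro j
    have h := abs_real_inner_le_norm (b j) e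
    rw [b.norm_eq_one j, one_mul] at h
    exact h.trans he
  have hbd : ∀ (j : Fin 2) (t : ℝ), t ∈ Icc (0 : ℝ) 1 → |s * ⟪b j, e⟫ - t * δ| ≤ L * η + δ := by
    intro j t ht
    have h1 : |s * ⟪b j, e⟫| ≤ L * η := by
      rw [abs_mul]; exact mul_le_mul hs (hin j) (abs_nonneg _) hL
    have h2 : |t * δ| ≤ δ := by
      rw [abs_of_nonneg (mul_nonneg ht.1 hδ.le)]
      nlinarith [ht.2]
    calc |s * ⟪b j, e⟫ - t * δ| ≤ |s * ⟪b j, e⟫| + |t * δ| := abs_sub _ _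
      _ ≤ L * η + δ := add_le_add h1 h2
  have hE1b : |E1| ≤ L * η + δ := hbd 0 x hx
  have hE2b : |E2| ≤ L * η + δ := hbd 1 y hy
  have hM : 0 ≤ L * η + δ := by positivity
  set M := L * η + δ with hMdef
  have ha : |s * α| ≤ L * C := by rw [abs_mul]; exact mul_le_mul hs hα (abs_nonneg _) hL
  have hb : |s * β| ≤ L * C := by rw [abs_mul]; exact mul_le_mul hs hβ (abs_nonneg _) hL
  have hXe : (1 - (s * α) * (s * β)) * X = E1 - (s * α) * E2 := by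
    rw [← eq0', ← eq1']; ring
  have hYe : (1 - (s * α) * (s * β)) * Y = E2 - (s * β) * E1 := by
    rw [← eq0', ← eq1']; ring
  have hκp : 0 < 1 - (s * α) * (s * β) := lt_of_lt_of_le hκ hκ'
  have hgen : ∀ (Z F1 F2 c : ℝ), |c| ≤ L * C → |F1| ≤ M → |F2| ≤ M →
      (1 - (s * α) * (s * β)) * Z = F1 - c * F2 → |Z| ≤ (1 + L * C) * M / κ := by
    intro Z F1 F2 c hc h1 h2 hZ
    rw [le_div_iff₀ hκ]
    have h3 : |(1 - (s * α) * (s * β)) * Z| ≤ (1 + L * C) * M := by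
      rw [hZ]
      calc |F1 - c * F2| ≤ |F1| + |c * F2| := abs_sub _ _
        _ = |F1| + |c| * |F2| := by rw [abs_mul]
        _ ≤ M + (L * C) * M := by
            gcongr
        _ = (1 + L * C) * M := by ring
    rw [abs_mul, abs_of_pos hκp] at h3
    calc |Z| * κ ≤ |Z| * (1 - (s * α) * (s * β)) := by gcongr
      _ = (1 - (s * α) * (s * β)) * |Z| := by ring
      _ ≤ _ := h3
  have hXb : |X| ≤ (1 + L * C) * M / κ := hgen X E1 E2 _ ha hE1b hE2b hXe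
  have hYb : |Y| ≤ (1 + L * C) * M / κ := hgen Y E2 E1 _ hb hE2b hE1b hYe
  calc ‖w‖ = ‖X • b 0 + Y • b 1‖ := by rw [← hwdec]
    _ ≤ ‖X • b 0‖ + ‖Y • b 1‖ := norm_add_le _ _
    _ = |X| + |Y| := by
        rw [norm_smul, norm_smul, hn0, hn1, mul_one, mul_one, Real.norm_eq_abs, Real.norm_eq_abs]
    _ ≤ (1 + L * C) * M / κ + (1 + L * C) * M / κ := add_le_add hXb hYb
    _ = 2 * (1 + L * C) * M / κ := by ring

/-- Half-open rectangle with respect to an orthonormal frame. -/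
def cell (b : OrthonormalBasis (Fin 2) ℝ E) (p₀ : E) (l₁ u₁ l₂ u₂ : ℝ) : Set E :=
  {u | ⟪b 0, u - p₀⟫ ∈ Ico l₁ u₁ ∧ ⟪b 1, u - p₀⟫ ∈ Ico l₂ u₂}

lemma measurableSet_cell (b : OrthonormalBasis (Fin 2) ℝ E) (p₀ : E) (l₁ u₁ l₂ u₂ : ℝ) :
    MeasurableSet (cell b p₀ l₁ u₁ l₂ u₂) := by
  have h0 : Continuous fun u : E => ⟪b 0, u - p₀⟫ := by fun_prop
  have h1 : Continuous fun u : E => ⟪b 1, u - p₀⟫ := by fun_prop
  exact (h0.measurable measurableSet_Ico).inter (h1.measurable measurableSet_Ico)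

lemma volume_cell (b : OrthonormalBasis (Fin 2) ℝ E) (p₀ : E) (l₁ u₁ l₂ u₂ : ℝ) :
    volume (cell b p₀ l₁ u₁ l₂ u₂) = ENNReal.ofReal (u₁ - l₁) * ENNReal.ofReal (u₂ - l₂) := by
  have hmp1 : MeasurePreserving (fun u : E => u - p₀) volume volume :=
    measurePreserving_sub_right volume p₀
  have hmp2 : MeasurePreserving (fun u : E => b.repr u) volume volume :=
    b.measurePreserving_repr
  have hmp3 : MeasurePreserving (WithLp.ofLp : EuclideanSpace ℝ (Fin 2) → (Fin 2 → ℝ)) volume volume :=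
    PiLp.volume_preserving_ofLp (Fin 2)
  have hmp := hmp3.comp (hmp2.comp hmp1)
  set F : Fin 2 → ℝ := ![l₁, l₂] with hF
  set G : Fin 2 → ℝ := ![u₁, u₂] with hG
  have hset : cell b p₀ l₁ u₁ l₂ u₂ =
      (WithLp.ofLp ∘ (fun u : E => b.repr u) ∘ fun u : E => u - p₀) ⁻¹'
        (Set.pi univ fun i => Ico (F i) (G i)) := by
    ext u
    simp only [cell, mem_ofPred_eq, mem_preimage, Function.comp, Set.mem_pi, mem_univ, forall_true_left,
      Fin.forall_fin_two, hF, hG, Matrix.cons_val_zero, Matrix.cons_val_one,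
      OrthonormalBasis.repr_apply_apply]
  rw [hset, hmp.measure_preimage (by
    exact (MeasurableSet.univ_pi fun i => measurableSet_Ico).nullMeasurableSet), Real.volume_pi_Ico,
    Fin.prod_univ_two]
  simp [hF, hG]

/-- The lattice cells at scale `δ`. -/
def lcell (b : OrthonormalBasis (Fin 2) ℝ E) (p₀ : E) (δ : ℝ) (mn : ℤ × ℤ) : Set E :=
  cell b p₀ (δ * mn.1) (δ * (mn.1 + 1)) (δ * mn.2) (δ * (mn.2 + 1))

lemma volume_lcell (b : OrthonormalBasis (Fin 2) ℝ E) (p₀ : E) (δ : ℝ) (hδ : 0 < δ) (mn : ℤ × ℤ) :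
    volume (lcell b p₀ δ mn) = ENNReal.ofReal (δ ^ 2) := by
  rw [lcell, volume_cell, ← ENNReal.ofReal_mul (by nlinarith)]
  congr 1
  ring

lemma lcell_disjoint (b : OrthonormalBasis (Fin 2) ℝ E) (p₀ : E) (δ : ℝ) (hδ : 0 < δ) (mn mn' : ℤ × ℤ)
    (hne : mn ≠ mn') : Disjoint (lcell b p₀ δ mn) (lcell b p₀ δ mn') := by
  rw [Set.disjoint_left]
  rintro u ⟨⟨h1, h2⟩, ⟨h3, h4⟩⟩ ⟨⟨h5, h6⟩, ⟨h7, h8⟩⟩
  apply hne
  have key : ∀ (m m' : ℤ) (t : ℝ), δ * m ≤ t → t < δ * (m' + 1) → m ≤ m' := by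
    intro m m' t h h'
    have h'' : δ * (m : ℝ) < δ * (m' + 1) := lt_of_le_of_lt h h'
    have h''' : (m : ℝ) < m' + 1 := lt_of_mul_lt_mul_left h'' hδ.le
    have : m < m' + 1 := by exact_mod_cast h'''
    omega
  have e1 : mn.1 = mn'.1 := le_antisymm (key _ _ _ h1 h6) (key _ _ _ h5 h2)
  have e2 : mn.2 = mn'.2 := le_antisymm (key _ _ _ h3 h8) (key _ _ _ h7 h4)
  exact Prod.ext e1 e2

/-- Counting lattice cells in a set of finite volume. -/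
lemma count_cells (b : OrthonormalBasis (Fin 2) ℝ E) (p₀ : E) (δ : ℝ) (hδ : 0 < δ) (W : Set E)
    (hW : volume W ≠ ∞) :
    ∃ Λ : Finset (ℤ × ℤ), (∀ mn, mn ∈ Λ ↔ lcell b p₀ δ mn ⊆ W) ∧
      (Λ.card : ℝ) * δ ^ 2 ≤ (volume W).toReal := by
  classical
  have hδ2 : 0 < δ ^ 2 := by positivity
  have hfin : ∀ Λ : Finset (ℤ × ℤ), (∀ mn ∈ Λ, lcell b p₀ δ mn ⊆ W) →
      (Λ.card : ℝ) * δ ^ 2 ≤ (volume W).toReal := by
    intro Λ hΛ
    have h1 : volume (⋃ mn ∈ Λ, lcell b p₀ δ mn) = ∑ mn ∈ Λ, volume (lcell b p₀ δ mn) := by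
      apply measure_biUnion_finset
      · intro x _ y _ hxy
        exact lcell_disjoint b p₀ δ hδ x y hxy
      · intro x _
        exact measurableSet_cell _ _ _ _ _ _
    have h2 : volume (⋃ mn ∈ Λ, lcell b p₀ δ mn) ≤ volume W :=
      measure_mono (iUnion₂_subset hΛ)
    have h3 : ∑ mn ∈ Λ, volume (lcell b p₀ δ mn) = (Λ.card : ℝ≥0∞) * ENNReal.ofReal (δ ^ 2) := by
      rw [Finset.sum_congr rfl (fun x _ => volume_lcell b p₀ δ hδ x)]
      simp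
    rw [h1, h3] at h2
    have h4 := ENNReal.toReal_mono hW h2
    rw [ENNReal.toReal_mul, ENNReal.toReal_ofReal hδ2.le] at h4
    simpa using h4
  have hfinite : {mn : ℤ × ℤ | lcell b p₀ δ mn ⊆ W}.Finite := by
    by_contra hinf
    have hinf' : {mn : ℤ × ℤ | lcell b p₀ δ mn ⊆ W}.Infinite := hinf
    obtain ⟨N, hN⟩ := exists_nat_gt ((volume W).toReal / δ ^ 2)
    obtain ⟨t, ht, htc⟩ := hinf'.exists_subset_card_eq N
    have := hfin t (fun mn hmn => ht hmn)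
    rw [htc] at this
    rw [div_lt_iff₀ hδ2] at hN
    linarith
  refine ⟨hfinite.toFinset, ?_, ?_⟩
  · intro mn
    simp
  · apply hfin
    intro mn hmn
    simpa using hmn

end Crest.Agent.Lib.Ruled
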